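import Crest.Agent.Lib.Bc.TailShort.Main
import Crest.Agent.Lib.Bc.TailLoose
/-!
# Row 163, `q = 3`, `lam < 0`: the tail, unconditional (helper61)

`tailPairs`: the hypothesis of `Tail.Loose.tail_leaf`, `Tail.Loose.tail_gw`.  So for every critical `b ≥ 4`, `d ≥ 4`
the advantage tends to `0` as soon as `momS < 1/25` at some level.
-/
open scoped BigOperators
open Filter Topology
open Crest.ProbabilityR.Broadcast
namespace Crest.Agent.Lib.Bc.TailShort
open Crest.Agent.Lib.Bc

/-- the pair bounds at the constants of `TailShort.Main` -/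
theorem tailPairs0 : Tail.TailPairs 3 3 2 0 10 10 5 12 24 where
  Sp := fun _ hx _ hx' hD => tail_Sp hx hx' hD
  Sm := fun _ hx _ hx' hD => tail_Sm hx hx' hD
  Pp := fun _ hx _ hx' hD => by
    have := tail_Pp hx hx' hD
    linarith
  Pm := fun _ hx _ hx' hD => tail_Pm hx hx' hD
  Rp := fun _ hx _ hx' hD => by
    have := tail_Rp hx hx' hD
    linarith

/-- the pair bounds at the loose constants -/
theorem tailPairs : Tail.TailPairs 3 3 3 2 10 10 6 13 24 :=
  tailPairs0.mono (by norm_num) (by norm_num) (by norm_num) (by norm_num) (by norm_num) (by norm_num)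
    (by norm_num) (by norm_num)

end Crest.Agent.Lib.Bc.TailShort
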