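import Crest.Agent.Lib.Bc.Cert3.Base
/-!
# Row 163, tail pair corollaries: sharper bounds on `x'ᵢ ≤ 1/2` (helper61)

On the region `x ∈ Simp 3`, `x' ∈ Simp 3`, `x'ᵢ ≤ 1/2` we have `Z ≤ 3/2` for every relabelling, and the Taylor bounds
of `TailPolys` improve by a `w⁴` term that is exact at `Z = 3/2`:

* `1/Z ≥ T3f w + (2/3) w⁴`, `1/Z³ ≥ T3pf w + (87/10) w⁴`, `W/Z² ≤ W T2pf w + w⁴ (12 W + (23/10) Z w²)`,
* `Esig_c_leB : Esig cFn ≤ U3b`, `Esig_a2_leB : Esig a² ≤ U2b`,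
* `chartH`: on the region `4 a' = t² (1 - (3/4) g)`, `8 c' = - t³ (1 - (9/8) g)`, `(t, g) ∈ [0,1]²`.
-/
open scoped BigOperators
namespace Crest.Agent.Lib.Bc.TailShort
open PolyFast (E den den_add' den_sub' den_mul' den_neg' den_pow' den_var' den_num' eq_of_check')
open BiCheck (Term Rval termV Ax Side Prob)
open Tail

/-! ## the chart of the region -/

/-- the chart on `x'ᵢ ≤ 1/2`: this is `T_(-1/2)` of the simplex -/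
theorem chartH {x : Fin 3 → ℝ} (hx : x ∈ Simp 3) (hh : ∀ i, x i ≤ 1 / 2) :
    ∃ t g : ℝ, 0 ≤ t ∧ t ≤ 1 ∧ 0 ≤ g ∧ g ≤ 1 ∧ 4 * aFn 3 x = t ^ 2 * (1 - (3 / 4) * g) ∧
      8 * cFn x = -(t ^ 3 * (1 - (9 / 8) * g)) := by
  have hs := hx.2
  rw [Fin.sum_univ_three] at hs
  have hy : (fun i => 1 - 2 * x i) ∈ Simp 3 := by
    refine ⟨fun i => by have := hh i; show (0 : ℝ) ≤ 1 - 2 * x i; linarith, ?_⟩
    rw [Fin.sum_univ_three]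
    show (1 - 2 * x 0) + (1 - 2 * x 1) + (1 - 2 * x 2) = 1
    linarith
  obtain ⟨t, g, a1, a2, a3, a4, a5, a6⟩ := Cert3.chart hy
  have h2 : x 2 = 1 - x 0 - x 1 := by linarith
  refine ⟨t, g, a1, a2, a3, a4, ?_, ?_⟩
  · rw [← a5, aFn3, aFn3]
    rw [h2]
    ring
  · have e : cFn (fun i => 1 - 2 * x i) = -(8 * cFn x) := by
      unfold cFn
      simp only
      rw [h2]
      ring
    rw [← a6, e]
    ring

/-- `Z ≤ 3/2` on the region -/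
lemma Zl_ellP_le_half {x y : Fin 3 → ℝ} (hx : x ∈ Simp 3) (hy : ∀ i, y i ≤ 1 / 2) :
    Zl (ellP x y) ≤ 3 / 2 := by
  rw [Zl_ellP]
  unfold zP
  have hx0 := hx.1 0
  have hx1 := hx.1 1
  have hx2 := hx.1 2
  have hsx := hx.2
  rw [Fin.sum_univ_three] at hsx
  nlinarith [mul_le_mul_of_nonneg_left (hy 0) hx0, mul_le_mul_of_nonneg_left (hy 1) hx1,
    mul_le_mul_of_nonneg_left (hy 2) hx2]

/-! ## sharper one-variable bounds -/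

lemma T1_leB {Z : ℝ} (hZ : 0 < Z) (hZ2 : Z ≤ 3 / 2) : T3f (Z - 1) + (2 / 3) * (Z - 1) ^ 4 ≤ 1 / Z := by
  rw [le_div_iff₀ hZ]
  unfold T3f
  have e : (1 - (Z - 1) + (Z - 1) ^ 2 - (Z - 1) ^ 3 + (2 / 3) * (Z - 1) ^ 4) * Z
      = 1 - (Z - 1) ^ 4 * (1 - (2 / 3) * Z) := by ring
  rw [e]
  have h4 : 0 ≤ (Z - 1) ^ 4 := by positivity
  have := mul_nonneg h4 (show 0 ≤ 1 - (2 / 3) * Z by linarith)
  linarith

lemma T3_leB {Z : ℝ} (hZ : 0 < Z) (hZ2 : Z ≤ 3 / 2) : T3pf (Z - 1) + (87 / 10) * (Z - 1) ^ 4 ≤ 1 / Z ^ 3 := by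
  rw [le_div_iff₀ (by positivity)]
  unfold T3pf
  have e : (1 - 3 * (Z - 1) + 6 * (Z - 1) ^ 2 - 10 * (Z - 1) ^ 3 + (87 / 10) * (Z - 1) ^ 4) * Z ^ 3
      = 1 - (Z - 1) ^ 4 * (1 + 4 * Z + 10 * Z ^ 2 - (87 / 10) * Z ^ 3) := by ring
  rw [e]
  have h4 : 0 ≤ (Z - 1) ^ 4 := by positivity
  have h5 : 0 ≤ 1 + 4 * Z + 10 * Z ^ 2 - (87 / 10) * Z ^ 3 := by
    have h6 : 0 ≤ (3 / 2 - Z) * ((87 / 10) * Z ^ 2 + (61 / 20) * Z + 23 / 40) :=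
      mul_nonneg (by linarith) (by positivity)
    nlinarith
  have := mul_nonneg h4 h5
  linarith

lemma W_div_leB {W Z : ℝ} (hZ : 0 < Z) (hW : 0 ≤ W) (hW2 : W ≤ Z ^ 3) :
    W / Z ^ 2 ≤ W * T2pf (Z - 1) + (Z - 1) ^ 4 * (12 * W + (23 / 10) * (Z * (Z - 1) ^ 2)) := by
  rw [div_le_iff₀ (by positivity)]
  unfold T2pf
  have e : (W * (1 - 2 * (Z - 1) + 3 * (Z - 1) ^ 2 - 4 * (Z - 1) ^ 3)
        + (Z - 1) ^ 4 * (12 * W + (23 / 10) * (Z * (Z - 1) ^ 2))) * Z ^ 2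
      = W - (Z - 1) ^ 4 * (W * (1 + 4 * Z - 12 * Z ^ 2) - (23 / 10) * (Z ^ 3 * (Z - 1) ^ 2)) := by ring
  rw [e]
  have h4 : 0 ≤ (Z - 1) ^ 4 := by positivity
  have h5 : W * (1 + 4 * Z - 12 * Z ^ 2) ≤ (23 / 10) * (Z ^ 3 * (Z - 1) ^ 2) := by
    have hZ3 : 0 ≤ Z ^ 3 := by positivity
    by_cases h : 1 + 4 * Z - 12 * Z ^ 2 ≤ 0
    · have h6 := mul_nonneg hW (neg_nonneg.mpr h)
      have : 0 ≤ Z ^ 3 * (Z - 1) ^ 2 := by positivity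
      nlinarith
    · have h' : 0 ≤ 1 + 4 * Z - 12 * Z ^ 2 := (not_le.mp h).le
      have h7 := mul_le_mul_of_nonneg_right hW2 h'
      have h8 : 1 + 4 * Z - 12 * Z ^ 2 ≤ (23 / 10) * (Z - 1) ^ 2 := by
        nlinarith [sq_nonneg (Z - 43 / 143)]
      have h9 := mul_le_mul_of_nonneg_left h8 hZ3
      nlinarith
  have := mul_nonneg h4 (sub_nonneg.mpr h5)
  linarith

/-! ## pointwise -/

section pointwise
variable {ℓ : Fin 3 → ℝ}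

private lemma X_zero (h : ∀ i, 0 ≤ ℓ i) (hZ : Zl ℓ = 0) : Xt ℓ = 0 := by
  unfold Xt; rw [zero_of_Zl h hZ 0, zero_of_Zl h hZ 1]; simp

private lemma W_zero (h : ∀ i, 0 ≤ ℓ i) (hZ : Zl ℓ = 0) : Wl ℓ = 0 := by
  unfold Wl; rw [zero_of_Zl h hZ 0]; simp

private lemma Z_pos (h : ∀ i, 0 ≤ ℓ i) (hZ : Zl ℓ ≠ 0) : 0 < Zl ℓ :=
  lt_of_le_of_ne (Zl_nonneg h) (Ne.symm hZ)

private lemma W_le (h : ∀ i, 0 ≤ ℓ i) : Wl ℓ ≤ Zl ℓ ^ 3 := by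
  have h1 := Wl_le_Xt_Z h
  have h2 : Xt ℓ ≤ Zl ℓ ^ 2 := Xt_le_Zsq
  have h3 := Zl_nonneg h
  have := mul_le_mul_of_nonneg_right h2 h3
  nlinarith

private lemma X_div_leB {X Z : ℝ} (hZ : 0 < Z) (hZ2 : Z ≤ 3 / 2) (hX : 0 ≤ X) :
    X * T3f (Z - 1) + (2 / 3) * (X * (Z - 1) ^ 4) ≤ X / Z := by
  have := mul_le_mul_of_nonneg_left (T1_leB hZ hZ2) hX
  have e : X * (1 / Z) = X / Z := by ring
  linarith

theorem Kz_c_upB (h : ∀ i, 0 ≤ ℓ i) (hZ2 : Zl ℓ ≤ 3 / 2) :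
    Kz 3 cFn ℓ ≤ Zl ℓ - (3 / 2) * (Xt ℓ * T3f (Zl ℓ - 1)) - Xt ℓ * (Zl ℓ - 1) ^ 4
      + (1 / 2) * (Wl ℓ * T2pf (Zl ℓ - 1)) + 6 * (Wl ℓ * (Zl ℓ - 1) ^ 4)
      + (23 / 20) * (Zl ℓ * (Zl ℓ - 1) ^ 6) := by
  rw [Kz_cFn h]
  by_cases hZ : Zl ℓ = 0
  · simp [hZ, X_zero h hZ, W_zero h hZ]
  · have h1 := X_div_leB (X := Xt ℓ) (Z_pos h hZ) hZ2 (Xt_nonneg h)
    have h2 := W_div_leB (W := Wl ℓ) (Z_pos h hZ) (Wl_nonneg h) (W_le h)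
    have e : (Zl ℓ - 1) ^ 4 * (12 * Wl ℓ + (23 / 10) * (Zl ℓ * (Zl ℓ - 1) ^ 2))
        = 12 * (Wl ℓ * (Zl ℓ - 1) ^ 4) + (23 / 10) * (Zl ℓ * (Zl ℓ - 1) ^ 6) := by ring
    rw [e] at h2
    linarith

theorem Kz_a2_upB (h : ∀ i, 0 ≤ ℓ i) (hZ2 : Zl ℓ ≤ 3 / 2) :
    Kz 3 (fun x => aFn 3 x ^ 2) ℓ ≤ Zl ℓ - Xt ℓ * T3f (Zl ℓ - 1) - (2 / 3) * (Xt ℓ * (Zl ℓ - 1) ^ 4)
      - (Zl ℓ ^ 2 - Xt ℓ) * Xt ℓ * T3pf (Zl ℓ - 1)
      - (87 / 10) * ((Zl ℓ ^ 2 - Xt ℓ) * Xt ℓ * (Zl ℓ - 1) ^ 4) := by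
  rw [Kz_a2 h]
  by_cases hZ : Zl ℓ = 0
  · simp [hZ, X_zero h hZ]
  · have hpos := Z_pos h hZ
    have h1 := X_div_leB (X := Xt ℓ) hpos hZ2 (Xt_nonneg h)
    have h0 : 0 ≤ (Zl ℓ ^ 2 - Xt ℓ) * Xt ℓ :=
      mul_nonneg (by linarith [Xt_le_Zsq (ℓ := ℓ)]) (Xt_nonneg h)
    have h3 := mul_le_mul_of_nonneg_left (T3_leB hpos hZ2) h0
    have e : (Zl ℓ ^ 2 - Xt ℓ) * Xt ℓ * (1 / Zl ℓ ^ 3) = Xt ℓ / Zl ℓ - Xt ℓ ^ 2 / Zl ℓ ^ 3 := by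
      field_simp
    rw [e] at h3
    have e2 : (Zl ℓ ^ 2 - Xt ℓ) * Xt ℓ * (T3pf (Zl ℓ - 1) + (87 / 10) * (Zl ℓ - 1) ^ 4)
        = (Zl ℓ ^ 2 - Xt ℓ) * Xt ℓ * T3pf (Zl ℓ - 1)
          + (87 / 10) * ((Zl ℓ ^ 2 - Xt ℓ) * Xt ℓ * (Zl ℓ - 1) ^ 4) := by ring
    rw [e2] at h3
    linarith

end pointwise

/-! ## the new summands -/

noncomputable def g6 (x0 x1 x2 y0 y1 y2 : ℝ) : ℝ :=
  nP x0 x1 x2 y0 y1 y2 * (zP x0 x1 x2 y0 y1 y2 - 1) ^ 4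
noncomputable def g7 (x0 x1 x2 y0 y1 y2 : ℝ) : ℝ :=
  vP x0 x1 x2 y0 y1 y2 * (zP x0 x1 x2 y0 y1 y2 - 1) ^ 4
noncomputable def g8 (x0 x1 x2 y0 y1 y2 : ℝ) : ℝ :=
  zP x0 x1 x2 y0 y1 y2 * (zP x0 x1 x2 y0 y1 y2 - 1) ^ 6
noncomputable def g9 (x0 x1 x2 y0 y1 y2 : ℝ) : ℝ :=
  (zP x0 x1 x2 y0 y1 y2 ^ 2 - nP x0 x1 x2 y0 y1 y2) * nP x0 x1 x2 y0 y1 y2 * (zP x0 x1 x2 y0 y1 y2 - 1) ^ 4

def g6E (x0 x1 x2 y0 y1 y2 : E) : E := nE x0 x1 x2 y0 y1 y2 * (zE x0 x1 x2 y0 y1 y2 - E.num 1) ^ 4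
def g7E (x0 x1 x2 y0 y1 y2 : E) : E := vE x0 x1 x2 y0 y1 y2 * (zE x0 x1 x2 y0 y1 y2 - E.num 1) ^ 4
def g8E (x0 x1 x2 y0 y1 y2 : E) : E := zE x0 x1 x2 y0 y1 y2 * (zE x0 x1 x2 y0 y1 y2 - E.num 1) ^ 6
def g9E (x0 x1 x2 y0 y1 y2 : E) : E :=
  (zE x0 x1 x2 y0 y1 y2 ^ 2 - nE x0 x1 x2 y0 y1 y2) * nE x0 x1 x2 y0 y1 y2 * (zE x0 x1 x2 y0 y1 y2 - E.num 1) ^ 4

section checks
variable (vs : List ℝ) (a b c d e f : E)

set_option linter.unusedSimpArgs false in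
lemma den_g6E : den vs (g6E a b c d e f)
    = g6 (den vs a) (den vs b) (den vs c) (den vs d) (den vs e) (den vs f) := by
  simp only [g6E, g6, den_add', den_sub', den_mul', den_pow', den_zE, den_nE, den_vE, den_num', Int.cast_one, Int.cast_ofNat]
set_option linter.unusedSimpArgs false in
lemma den_g7E : den vs (g7E a b c d e f)
    = g7 (den vs a) (den vs b) (den vs c) (den vs d) (den vs e) (den vs f) := by
  simp only [g7E, g7, den_add', den_sub', den_mul', den_pow', den_zE, den_nE, den_vE, den_num', Int.cast_one, Int.cast_ofNat]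
set_option linter.unusedSimpArgs false in
lemma den_g8E : den vs (g8E a b c d e f)
    = g8 (den vs a) (den vs b) (den vs c) (den vs d) (den vs e) (den vs f) := by
  simp only [g8E, g8, den_add', den_sub', den_mul', den_pow', den_zE, den_nE, den_vE, den_num', Int.cast_one, Int.cast_ofNat]
set_option linter.unusedSimpArgs false in
lemma den_g9E : den vs (g9E a b c d e f)
    = g9 (den vs a) (den vs b) (den vs c) (den vs d) (den vs e) (den vs f) := by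
  simp only [g9E, g9, den_add', den_sub', den_mul', den_pow', den_zE, den_nE, den_vE, den_num', Int.cast_one, Int.cast_ofNat]

end checks

/-! ## the polynomials -/

noncomputable def G6 (a c a' c' : ℝ) : ℝ :=
  8 * c^2 * c'^2 + 10 * a * c * a' * c' + 6 * a^2 * a'^2 + 16 * a^3 * a'^3 - 4 * c^2 * a' * c' - 4 * a * c * c'^2 - 4 * c^2 * a'^3 - 6 * a * c * a'^3 - 6 * a^2 * a'^3 - 4 * a^3 * c'^2 - 6 * a^3 * a' * c' - 6 * a^3 * a'^2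

def G6E (A C A' C' : E) : E :=
  E.num 1 * C^2 * C'^2 + E.num 5 * A * C * A' * C' + E.num 12 * A^2 * A'^2 + E.num 32 * A^3 * A'^3 - E.num 1 * C^2 * A' * C' - E.num 1 * A * C * C'^2 - E.num 2 * C^2 * A'^3 - E.num 6 * A * C * A'^3 - E.num 12 * A^2 * A'^3 - E.num 2 * A^3 * C'^2 - E.num 6 * A^3 * A' * C' - E.num 12 * A^3 * A'^2

noncomputable def G6I (A C A' C' : ℝ) : ℝ :=
  1 * C^2 * C'^2 + 5 * A * C * A' * C' + 12 * A^2 * A'^2 + 32 * A^3 * A'^3 - 1 * C^2 * A' * C' - 1 * A * C * C'^2 - 2 * C^2 * A'^3 - 6 * A * C * A'^3 - 12 * A^2 * A'^3 - 2 * A^3 * C'^2 - 6 * A^3 * A' * C' - 12 * A^3 * A'^2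

lemma G6I_eq (a c a' c' : ℝ) : G6I a (2 * c) a' (2 * c') = 2 * G6 a c a' c' := by
  unfold G6I G6
  ring

set_option linter.unusedSimpArgs false in
lemma den_G6E (vs : List ℝ) (A C A' C' : E) :
    den vs (G6E A C A' C') = G6I (den vs A) (den vs C) (den vs A') (den vs C') := by
  simp only [G6E, G6I, den_add', den_sub', den_mul', den_pow', den_num', Int.cast_ofNat, Int.cast_one]

noncomputable def G7 (a c a' c' : ℝ) : ℝ :=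
  6 * a^2 * a'^2 + 12 * a^2 * a'^2 * c' + 12 * a^2 * c * a'^2 + 24 * a^2 * c * a'^2 * c' + 54 * a^3 * a'^3 - 18 * a^2 * a'^3 - 18 * a^3 * a'^2 - 36 * a^2 * c * a'^3 - 36 * a^3 * a'^2 * c'

def G7E (A C A' C' : E) : E :=
  E.num 6 * A^2 * A'^2 + E.num 6 * A^2 * A'^2 * C' + E.num 6 * A^2 * C * A'^2 + E.num 6 * A^2 * C * A'^2 * C' + E.num 54 * A^3 * A'^3 - E.num 18 * A^2 * A'^3 - E.num 18 * A^3 * A'^2 - E.num 18 * A^2 * C * A'^3 - E.num 18 * A^3 * A'^2 * C'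

noncomputable def G7I (A C A' C' : ℝ) : ℝ :=
  6 * A^2 * A'^2 + 6 * A^2 * A'^2 * C' + 6 * A^2 * C * A'^2 + 6 * A^2 * C * A'^2 * C' + 54 * A^3 * A'^3 - 18 * A^2 * A'^3 - 18 * A^3 * A'^2 - 18 * A^2 * C * A'^3 - 18 * A^3 * A'^2 * C'

lemma G7I_eq (a c a' c' : ℝ) : G7I a (2 * c) a' (2 * c') = 1 * G7 a c a' c' := by
  unfold G7I G7
  ring

set_option linter.unusedSimpArgs false in
lemma den_G7E (vs : List ℝ) (A C A' C' : E) :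
    den vs (G7E A C A' C') = G7I (den vs A) (den vs C) (den vs A') (den vs C') := by
  simp only [G7E, G7I, den_add', den_sub', den_mul', den_pow', den_num', Int.cast_ofNat, Int.cast_one]

noncomputable def G8 (a c a' c' : ℝ) : ℝ :=
  8 * c^2 * c'^2 + 42 * a^2 * c * a'^2 * c' + 22 * a^3 * a'^3 - 4 * c^2 * a'^3 - 4 * a^3 * c'^2

def G8E (A C A' C' : E) : E :=
  E.num 1 * C^2 * C'^2 + E.num 21 * A^2 * C * A'^2 * C' + E.num 44 * A^3 * A'^3 - E.num 2 * C^2 * A'^3 - E.num 2 * A^3 * C'^2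

noncomputable def G8I (A C A' C' : ℝ) : ℝ :=
  1 * C^2 * C'^2 + 21 * A^2 * C * A'^2 * C' + 44 * A^3 * A'^3 - 2 * C^2 * A'^3 - 2 * A^3 * C'^2

lemma G8I_eq (a c a' c' : ℝ) : G8I a (2 * c) a' (2 * c') = 2 * G8 a c a' c' := by
  unfold G8I G8
  ring

set_option linter.unusedSimpArgs false in
lemma den_G8E (vs : List ℝ) (A C A' C' : E) :
    den vs (G8E A C A' C') = G8I (den vs A) (den vs C) (den vs A') (den vs C') := by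
  simp only [G8E, G8I, den_add', den_sub', den_mul', den_pow', den_num', Int.cast_ofNat, Int.cast_one]

noncomputable def G9 (a c a' c' : ℝ) : ℝ :=
  8 * c^2 * c'^2 + 4 * c^2 * a' * c' + 4 * a * c * c'^2 + 10 * a * c * a' * c' + 8 * c^2 * a' * c'^2 + 6 * a * c * a'^3 + 8 * a * c^2 * c'^2 + 6 * a^2 * a'^3 + 6 * a^3 * a' * c' + 6 * a^3 * a'^2 + 8 * a * c^2 * a' * c'^2 + 16 * a * c^2 * a'^2 * c' + 16 * a^2 * c * a' * c'^2 + 16 * a^3 * a'^3 + 6 * a^2 * c * a'^4 + 8 * a^3 * a'^4 + 6 * a^4 * a'^2 * c' + 8 * a^4 * a'^3 + 16 * a^4 * a'^4 - 8 * c^2 * a'^2 * c' - 4 * c^2 * a'^3 - 8 * a * c * a' * c'^2 - 8 * a * c^2 * a' * c' - 8 * a^2 * c * c'^2 - 4 * a^3 * c'^2 - 8 * c^2 * a'^4 - 12 * a * c * a'^4 - 20 * a * c^2 * a'^3 - 6 * a^2 * a'^4 - 2 * a^2 * c * a'^2 * c' - 12 * a^2 * c * a'^3 - 20 * a^3 * a' * c'^2 - 12 * a^3 * a'^2 * c'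 - 8 * a^4 * c'^2 - 12 * a^4 * a' * c' - 6 * a^4 * a'^2 - 4 * a * c^2 * a'^4 - 4 * a^4 * a' * c'^2

def G9E (A C A' C' : E) : E :=
  E.num 1 * C^2 * C'^2 + E.num 1 * C^2 * A' * C' + E.num 1 * A * C * C'^2 + E.num 5 * A * C * A' * C' + E.num 1 * C^2 * A' * C'^2 + E.num 6 * A * C * A'^3 + E.num 1 * A * C^2 * C'^2 + E.num 12 * A^2 * A'^3 + E.num 6 * A^3 * A' * C' + E.num 12 * A^3 * A'^2 + E.num 1 * A * C^2 * A' * C'^2 + E.num 4 * A * C^2 * A'^2 * C' + E.num 4 * A^2 * C * A' * C'^2 + E.num 32 * A^3 * A'^3 + E.num 6 * A^2 * C * A'^4 + E.num 16 * A^3 * A'^4 + E.num 6 * A^4 * A'^2 * C' + E.num 16 * A^4 * A'^3 + E.num 32 * A^4 * A'^4 - E.num 2 * C^2 * A'^2 * C' - E.num 2 * C^2 * A'^3 - E.num 2 * A * C * A' * C'^2 - E.num 2 * A * C^2 * A' * C' - E.num 2 * A^2 * C * C'^2 - E.num 2 * A^3 * C'^2 - E.num 4 * C^2 * A'^4 - E.num 12 * A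 * C * A'^4 - E.num 10 * A * C^2 * A'^3 - E.num 12 * A^2 * A'^4 - E.num 1 * A^2 * C * A'^2 * C' - E.num 12 * A^2 * C * A'^3 - E.num 10 * A^3 * A' * C'^2 - E.num 12 * A^3 * A'^2 * C' - E.num 4 * A^4 * C'^2 - E.num 12 * A^4 * A' * C' - E.num 12 * A^4 * A'^2 - E.num 2 * A * C^2 * A'^4 - E.num 2 * A^4 * A' * C'^2

noncomputable def G9I (A C A' C' : ℝ) : ℝ :=
  1 * C^2 * C'^2 + 1 * C^2 * A' * C' + 1 * A * C * C'^2 + 5 * A * C * A' * C' + 1 * C^2 * A' * C'^2 + 6 * A * C * A'^3 + 1 * A * C^2 * C'^2 + 12 * A^2 * A'^3 + 6 * A^3 * A' * C' + 12 * A^3 * A'^2 + 1 * A * C^2 * A' * C'^2 + 4 * A * C^2 * A'^2 * C' + 4 * A^2 * C * A' * C'^2 + 32 * A^3 * A'^3 + 6 * A^2 * C * A'^4 + 16 * A^3 * A'^4 + 6 * A^4 * A'^2 * C' + 16 * A^4 * A'^3 + 32 * A^4 * A'^4 - 2 * C^2 * A'^2 * C' - 2 * C^2 * A'^3 - 2 * A * C * A' * C'^2 - 2 * A * C^2 * A' * C'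 - 2 * A^2 * C * C'^2 - 2 * A^3 * C'^2 - 4 * C^2 * A'^4 - 12 * A * C * A'^4 - 10 * A * C^2 * A'^3 - 12 * A^2 * A'^4 - 1 * A^2 * C * A'^2 * C' - 12 * A^2 * C * A'^3 - 10 * A^3 * A' * C'^2 - 12 * A^3 * A'^2 * C' - 4 * A^4 * C'^2 - 12 * A^4 * A' * C' - 12 * A^4 * A'^2 - 2 * A * C^2 * A'^4 - 2 * A^4 * A' * C'^2

lemma G9I_eq (a c a' c' : ℝ) : G9I a (2 * c) a' (2 * c') = 2 * G9 a c a' c' := by
  unfold G9I G9
  ring

set_option linter.unusedSimpArgs false in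
lemma den_G9E (vs : List ℝ) (A C A' C' : E) :
    den vs (G9E A C A' C') = G9I (den vs A) (den vs C) (den vs A') (den vs C') := by
  simp only [G9E, G9I, den_add', den_sub', den_mul', den_pow', den_num', Int.cast_ofNat, Int.cast_one]


section ids
variable (x0 x1 y0 y1 : ℝ)

private lemma dX0 : den [x0, x1, y0, y1] X0 = x0 := rfl
private lemma dX1 : den [x0, x1, y0, y1] X1 = x1 := rfl
private lemma dY0 : den [x0, x1, y0, y1] Y0 = y0 := rfl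
private lemma dY1 : den [x0, x1, y0, y1] Y1 = y1 := rfl
private lemma dX2 : den [x0, x1, y0, y1] X2 = 1 - x0 - x1 := by
  simp only [X2, den_sub', den_num', Int.cast_one]; rfl
private lemma dY2 : den [x0, x1, y0, y1] Y2 = 1 - y0 - y1 := by
  simp only [Y2, den_sub', den_num', Int.cast_one]; rfl

local notation "𝐚" => aR x0 x1 (1 - x0 - x1)
local notation "𝐜" => cR x0 x1 (1 - x0 - x1)
local notation "𝐚'" => aR y0 y1 (1 - y0 - y1)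
local notation "𝐜'" => cR y0 y1 (1 - y0 - y1)

set_option maxRecDepth 100000 in
lemma id_g6 : sum6 g6 x0 x1 (1 - x0 - x1) y0 y1 (1 - y0 - y1) = 6 * G6 𝐚 𝐜 𝐚' 𝐜' := by
  have h := eq_of_check' (n := 4) [x0, x1, y0, y1] rfl
    (E.num 2 * sum6 g6E X0 X1 X2 Y0 Y1 Y2)
    (E.num 6 * G6E (aEE X0 X1 X2) (cEE X0 X1 X2) (aEE Y0 Y1 Y2) (cEE Y0 Y1 Y2)) (by decide +kernel)
  rw [den_mul', den_mul', den_num', den_num', den_sum6 _ _ _ _ _ _ _ (den_g6E _), den_G6E, den_aEE, den_aEE, den_cEE, den_cEE,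
    G6I_eq] at h
  simp only [dX0, dX1, dX2, dY0, dY1, dY2] at h
  push_cast at h
  linarith

set_option maxRecDepth 100000 in
lemma id_g7 : sum6 g7 x0 x1 (1 - x0 - x1) y0 y1 (1 - y0 - y1) = 6 * G7 𝐚 𝐜 𝐚' 𝐜' := by
  have h := eq_of_check' (n := 4) [x0, x1, y0, y1] rfl
    (E.num 1 * sum6 g7E X0 X1 X2 Y0 Y1 Y2)
    (E.num 6 * G7E (aEE X0 X1 X2) (cEE X0 X1 X2) (aEE Y0 Y1 Y2) (cEE Y0 Y1 Y2)) (by decide +kernel)
  rw [den_mul', den_mul', den_num', den_num', den_sum6 _ _ _ _ _ _ _ (den_g7E _), den_G7E, den_aEE, den_aEE, den_cEE, den_cEE,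
    G7I_eq] at h
  simp only [dX0, dX1, dX2, dY0, dY1, dY2] at h
  push_cast at h
  linarith

set_option maxRecDepth 100000 in
lemma id_g8 : sum6 g8 x0 x1 (1 - x0 - x1) y0 y1 (1 - y0 - y1) = 6 * G8 𝐚 𝐜 𝐚' 𝐜' := by
  have h := eq_of_check' (n := 4) [x0, x1, y0, y1] rfl
    (E.num 2 * sum6 g8E X0 X1 X2 Y0 Y1 Y2)
    (E.num 6 * G8E (aEE X0 X1 X2) (cEE X0 X1 X2) (aEE Y0 Y1 Y2) (cEE Y0 Y1 Y2)) (by decide +kernel)
  rw [den_mul', den_mul', den_num', den_num', den_sum6 _ _ _ _ _ _ _ (den_g8E _), den_G8E, den_aEE, den_aEE, den_cEE, den_cEE,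
    G8I_eq] at h
  simp only [dX0, dX1, dX2, dY0, dY1, dY2] at h
  push_cast at h
  linarith

set_option maxRecDepth 100000 in
lemma id_g9 : sum6 g9 x0 x1 (1 - x0 - x1) y0 y1 (1 - y0 - y1) = 6 * G9 𝐚 𝐜 𝐚' 𝐜' := by
  have h := eq_of_check' (n := 4) [x0, x1, y0, y1] rfl
    (E.num 2 * sum6 g9E X0 X1 X2 Y0 Y1 Y2)
    (E.num 6 * G9E (aEE X0 X1 X2) (cEE X0 X1 X2) (aEE Y0 Y1 Y2) (cEE Y0 Y1 Y2)) (by decide +kernel)
  rw [den_mul', den_mul', den_num', den_num', den_sum6 _ _ _ _ _ _ _ (den_g9E _), den_G9E, den_aEE, den_aEE, den_cEE, den_cEE,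
    G9I_eq] at h
  simp only [dX0, dX1, dX2, dY0, dY1, dY2] at h
  push_cast at h
  linarith

end ids

/-! ## the bounds -/

/-- the sharper upper bound of `Esig c` on the region -/
noncomputable def U3b (a c a' c' : ℝ) : ℝ :=
  1 - (3 / 2) * G1 a c a' c' - G6 a c a' c' + (1 / 2) * (VV a c a' c' * G4 a c a' c') + 6 * G7 a c a' c'
    + (23 / 20) * G8 a c a' c'

/-- the sharper upper bound of `Esig a²` on the region -/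
noncomputable def U2b (a c a' c' : ℝ) : ℝ :=
  1 - G1 a c a' c' - (2 / 3) * G6 a c a' c' - G5 a c a' c' - (87 / 10) * G9 a c a' c'

section final
variable {x x' : Fin 3 → ℝ}

private lemma rew (hx : x ∈ Simp 3) : x 2 = 1 - x 0 - x 1 := by
  have h := hx.2
  rw [Fin.sum_univ_three] at h
  linarith

private lemma comp_half (hh : ∀ i, x' i ≤ 1 / 2) (σ : Equiv.Perm (Fin 3)) : ∀ i, (x' ∘ σ) i ≤ 1 / 2 :=
  fun i => hh (σ i)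

/-- `Esig_le_sum6` on the region -/
lemma Esig_le_sum6B {f : (Fin 3 → ℝ) → ℝ} {F : ℝ → ℝ → ℝ → ℝ → ℝ → ℝ → ℝ}
    (hx' : x' ∈ Simp 3) (hh : ∀ i, x' i ≤ 1 / 2)
    (h : ∀ y ∈ Simp 3, (∀ i, y i ≤ 1 / 2) → Kz 3 f (ellP x y) ≤ F (x 0) (x 1) (x 2) (y 0) (y 1) (y 2)) :
    Esig 3 f x x' ≤ sum6 F (x 0) (x 1) (x 2) (x' 0) (x' 1) (x' 2) / 6 := by
  rw [Esig_eq, ← sum_sig]
  apply div_le_div_of_nonneg_right _ (by norm_num)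
  exact Finset.sum_le_sum fun σ _ => h _ (comp_mem hx' σ) (comp_half hh σ)

/-- `Esig c ≤ U3b` on the region -/
theorem Esig_c_leB (hx : x ∈ Simp 3) (hx' : x' ∈ Simp 3) (hh : ∀ i, x' i ≤ 1 / 2) :
    Esig 3 cFn x x' ≤ U3b (aFn 3 x) (cFn x) (aFn 3 x') (cFn x') := by
  have h := Esig_le_sum6B (f := cFn)
    (F := fun x0 x1 x2 y0 y1 y2 => g0 x0 x1 x2 y0 y1 y2 - (3 / 2) * g1 x0 x1 x2 y0 y1 y2 - g6 x0 x1 x2 y0 y1 y2
      + (1 / 2) * g4 x0 x1 x2 y0 y1 y2 + 6 * g7 x0 x1 x2 y0 y1 y2 + (23 / 20) * g8 x0 x1 x2 y0 y1 y2) (x := x) hx' hh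
    (fun y hy hyh => by
      have := Kz_c_upB (ellP_nonneg hx hy) (Zl_ellP_le_half hx hyh)
      rwa [Zl_ellP, Xt_ellP, Wl_ellP] at this)
  refine h.trans (le_of_eq ?_)
  rw [aFn_eq_aR hx, aFn_eq_aR hx', cFn_eq_cR hx, cFn_eq_cR hx', rew hx, rew hx', U3b]
  have i0 := id_g0 (x 0) (x 1) (x' 0) (x' 1)
  have i1 := id_g1 (x 0) (x 1) (x' 0) (x' 1)
  have i4 := id_g4 (x 0) (x 1) (x' 0) (x' 1)
  have i6 := id_g6 (x 0) (x 1) (x' 0) (x' 1)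
  have i7 := id_g7 (x 0) (x 1) (x' 0) (x' 1)
  have i8 := id_g8 (x 0) (x 1) (x' 0) (x' 1)
  simp only [sum6] at i0 i1 i4 i6 i7 i8 ⊢
  linarith

/-- `Esig a² ≤ U2b` on the region -/
theorem Esig_a2_leB (hx : x ∈ Simp 3) (hx' : x' ∈ Simp 3) (hh : ∀ i, x' i ≤ 1 / 2) :
    Esig 3 (fun y => aFn 3 y ^ 2) x x' ≤ U2b (aFn 3 x) (cFn x) (aFn 3 x') (cFn x') := by
  have h := Esig_le_sum6B (f := fun y => aFn 3 y ^ 2)
    (F := fun x0 x1 x2 y0 y1 y2 => g0 x0 x1 x2 y0 y1 y2 - g1 x0 x1 x2 y0 y1 y2 - (2 / 3) * g6 x0 x1 x2 y0 y1 y2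
      - g5 x0 x1 x2 y0 y1 y2 - (87 / 10) * g9 x0 x1 x2 y0 y1 y2) (x := x) hx' hh
    (fun y hy hyh => by
      have := Kz_a2_upB (ellP_nonneg hx hy) (Zl_ellP_le_half hx hyh)
      rw [Zl_ellP, Xt_ellP] at this
      unfold g0 g1 g5 g6 g9
      exact this)
  refine h.trans (le_of_eq ?_)
  rw [aFn_eq_aR hx, aFn_eq_aR hx', cFn_eq_cR hx, cFn_eq_cR hx', rew hx, rew hx', U2b]
  have i0 := id_g0 (x 0) (x 1) (x' 0) (x' 1)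
  have i1 := id_g1 (x 0) (x 1) (x' 0) (x' 1)
  have i5 := id_g5 (x 0) (x 1) (x' 0) (x' 1)
  have i6 := id_g6 (x 0) (x 1) (x' 0) (x' 1)
  have i9 := id_g9 (x 0) (x 1) (x' 0) (x' 1)
  simp only [sum6] at i0 i1 i5 i6 i9 ⊢
  linarith

end final

end Crest.Agent.Lib.Bc.TailShort
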