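import Crest.Agent.Lib.Bc.TailShort.Base
import Crest.Agent.Lib.Bc.TailShort.DataSp
import Crest.Agent.Lib.Bc.TailShort.DataSm
import Crest.Agent.Lib.Bc.TailShort.DataPm
import Crest.Agent.Lib.Bc.TailShort.DataPp
import Crest.Agent.Lib.Bc.TailShort.DataRp
/-!
# Row 163, tail: the five short pair bounds (helper61)

On `x ∈ Simp 3`, `x' ∈ Simp 3`, `x'ᵢ ≤ 1/2`, with `a = aFn 3 x`, `c = cFn x`, `a' = aFn 3 x'`, `c' = cFn x'`:

* `tail_Sp`: `Esig a ≤ a + a' - a a' - 2 c a' - 2 a c' + 2 c c' + 3 a² a' + 3 a a'²`,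
* `tail_Sm`: `a + a' - a a' - 2 c a' - 2 a c' + 2 c c' ≤ Esig a`,
* `tail_Pp`: `Esig c ≤ c + c' + 6 a a' - 6 c a' - 6 a c' + c c' + 2 a² a'`,
* `tail_Pm`: `c + c' + 6 a a' - 6 c a' - 6 a c' + c c' - 10 a² a' - 10 a a'² ≤ Esig c`,
* `tail_Rp`: `Esig a² ≤ a² + a'² + 4 a a' + 4 c a' + 4 a c' - 2 c c' - 24 a² c' + 5 a² a' + 12 a a'²`.

Method: `(a, c)` and `(4 a', 8 c')` in the charts `Cert3.chart`, `chartH`; the difference is
`s² t² (s² H₁ + t² H₂)` with all Bernstein digits of `H₁`, `H₂` positive on four cells per axis pair (`BiCheck`).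
-/
open scoped BigOperators
namespace Crest.Agent.Lib.Bc.TailShort
open PolyFast (E den den_add' den_sub' den_mul' den_neg' den_pow' den_var' den_num' eq_of_check')
open BiCheck (Term Rval termV Ax Side Prob)
open Cert3 (toE den_toE AxOK hat_pos aSE CSE den_aSE den_CSE)
open Tail

/-- `8 c'` in the chart, expression -/
def QSE (t k : E) : E := -(t ^ 3 * (E.num 1 - E.num 9 * k))

lemma den_QSE (vs : List ℝ) (t k : E) : den vs (QSE t k) = -(den vs t ^ 3 * (1 - 9 * den vs k)) := by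
  simp only [QSE, den_neg', den_mul', den_sub', den_pow', den_num']
  norm_num

/-- from the two hats to the pair polynomial -/
theorem pair_of_hats (T H1 H2 : List Term) (K₂ : ℝ) (hK : 0 < K₂)
    (hid : ∀ s h t k : ℝ, K₂ * Rval T (s ^ 2 * (1 - 6 * h), 2 * (s ^ 3 * (1 - 9 * h)), 0)
        (t ^ 2 * (1 - 6 * k), -(t ^ 3 * (1 - 9 * k)), 0)
      = s ^ 2 * t ^ 2 * (s ^ 2 * Rval H1 (s, 8 * h, 0) (t, 8 * k, 0)
          + t ^ 2 * Rval H2 (s, 8 * h, 0) (t, 8 * k, 0)))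
    (hpos1 : ∀ s η t g : ℝ, 0 ≤ s → s ≤ 1 → 0 ≤ η → η ≤ 1 → 0 ≤ t → t ≤ 1 → 0 ≤ g → g ≤ 1 →
      0 ≤ Rval H1 (s, η, 0) (t, g, 0))
    (hpos2 : ∀ s η t g : ℝ, 0 ≤ s → s ≤ 1 → 0 ≤ η → η ≤ 1 → 0 ≤ t → t ≤ 1 → 0 ≤ g → g ≤ 1 →
      0 ≤ Rval H2 (s, η, 0) (t, g, 0))
    {x x' : Fin 3 → ℝ} (hx : x ∈ Simp 3) (hx' : x' ∈ Simp 3) (hh : ∀ i, x' i ≤ 1 / 2) :
    0 ≤ Rval T (aFn 3 x, 2 * cFn x, 0) (4 * aFn 3 x', 8 * cFn x', 0) := by
  obtain ⟨s, η, a1, a2, a3, a4, a5, a6⟩ := Cert3.chart hx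
  obtain ⟨t, g, b1, b2, b3, b4, b5, b6⟩ := chartH hx' hh
  have h := hid s (η / 8) t (g / 8)
  have e1 : (8 : ℝ) * (η / 8) = η := by ring
  have e2 : (8 : ℝ) * (g / 8) = g := by ring
  have e3 : (1 : ℝ) - 6 * (η / 8) = 1 - (3 / 4) * η := by ring
  have e4 : (1 : ℝ) - 9 * (η / 8) = 1 - (9 / 8) * η := by ring
  have e3' : (1 : ℝ) - 6 * (g / 8) = 1 - (3 / 4) * g := by ring
  have e4' : (1 : ℝ) - 9 * (g / 8) = 1 - (9 / 8) * g := by ring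
  rw [e1, e2, e3, e4, e3', e4', ← a5, ← a6, ← b5, ← b6] at h
  have p1 := hpos1 s η t g a1 a2 a3 a4 b1 b2 b3 b4
  have p2 := hpos2 s η t g a1 a2 a3 a4 b1 b2 b3 b4
  have : 0 ≤ K₂ * Rval T (aFn 3 x, 2 * cFn x, 0) (4 * aFn 3 x', 8 * cFn x', 0) := by
    rw [h]; positivity
  exact nonneg_of_mul_nonneg_right this hK

/-! ### `Sp` -/

set_option maxRecDepth 100000 in
lemma Sp_eval (a c a' c' : ℝ) : Rval TSp (a, 2 * c, 0) (4 * a', 8 * c', 0)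
    = 32 * (a + a' - a * a' - 2 * c * a' - 2 * a * c' + 2 * c * c' + 3 * a ^ 2 * a' + 3 * a * a' ^ 2 - U1 a c a' c') := by
  simp [TSp, Rval, termV]
  unfold U1 G1
  ring

set_option maxRecDepth 100000 in
lemma Sp_chart (s h t k : ℝ) :
    (256 : ℝ) * Rval TSp (s ^ 2 * (1 - 6 * h), 2 * (s ^ 3 * (1 - 9 * h)), 0)
        (t ^ 2 * (1 - 6 * k), -(t ^ 3 * (1 - 9 * k)), 0)
      = s ^ 2 * t ^ 2 * (s ^ 2 * Rval HSp1 (s, 8 * h, 0) (t, 8 * k, 0)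
          + t ^ 2 * Rval HSp2 (s, 8 * h, 0) (t, 8 * k, 0)) := by
  have e := eq_of_check' (n := 4) [s, h, t, k] rfl
    (E.num 256 * toE (aSE (E.var 0) (E.var 1)) (CSE (E.var 0) (E.var 1)) (E.num 0)
      (aSE (E.var 2) (E.var 3)) (QSE (E.var 2) (E.var 3)) (E.num 0) TSp)
    (E.var 0 ^ 2 * E.var 2 ^ 2 * (E.var 0 ^ 2 * toE (E.var 0) (E.num 8 * E.var 1) (E.num 0)
        (E.var 2) (E.num 8 * E.var 3) (E.num 0) HSp1
      + E.var 2 ^ 2 * toE (E.var 0) (E.num 8 * E.var 1) (E.num 0)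
        (E.var 2) (E.num 8 * E.var 3) (E.num 0) HSp2)) (by decide +kernel)
  have d0 : den [s, h, t, k] (E.var 0) = s := rfl
  have d1 : den [s, h, t, k] (E.var 1) = h := rfl
  have d2 : den [s, h, t, k] (E.var 2) = t := rfl
  have d3 : den [s, h, t, k] (E.var 3) = k := rfl
  simp only [den_mul', den_add', den_toE, den_aSE, den_CSE, den_QSE, den_pow', den_num', d0, d1, d2, d3] at e
  norm_num at e
  norm_num
  exact e

theorem Sp_nonneg {x x' : Fin 3 → ℝ} (hx : x ∈ Simp 3) (hx' : x' ∈ Simp 3) (hh : ∀ i, x' i ≤ 1 / 2) :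
    0 ≤ Rval TSp (aFn 3 x, 2 * cFn x, 0) (4 * aFn 3 x', 8 * cFn x', 0) :=
  pair_of_hats TSp HSp1 HSp2 256 (by norm_num) Sp_chart
    (fun _ _ _ _ a1 a2 a3 a4 a5 a6 a7 a8 => hat_pos PHSp1 HSp1_check rfl rfl
      ⟨by decide +kernel, by decide +kernel⟩ ⟨by decide +kernel, by decide +kernel⟩
      ⟨by decide +kernel, by decide +kernel⟩ ⟨by decide +kernel, by decide +kernel⟩
      ⟨by decide +kernel, by decide +kernel⟩ ⟨by decide +kernel, by decide +kernel⟩ a1 a2 a3 a4 a5 a6 a7 a8)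
    (fun _ _ _ _ a1 a2 a3 a4 a5 a6 a7 a8 => hat_pos PHSp2 HSp2_check rfl rfl
      ⟨by decide +kernel, by decide +kernel⟩ ⟨by decide +kernel, by decide +kernel⟩
      ⟨by decide +kernel, by decide +kernel⟩ ⟨by decide +kernel, by decide +kernel⟩
      ⟨by decide +kernel, by decide +kernel⟩ ⟨by decide +kernel, by decide +kernel⟩ a1 a2 a3 a4 a5 a6 a7 a8)
    hx hx' hh

/-! ### `Sm` -/

set_option maxRecDepth 100000 in
lemma Sm_eval (a c a' c' : ℝ) : Rval TSm (a, 2 * c, 0) (4 * a', 8 * c', 0)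
    = 32 * (L1 a c a' c' - (a + a' - a * a' - 2 * c * a' - 2 * a * c' + 2 * c * c')) := by
  simp [TSm, Rval, termV]
  unfold L1 G1 G2
  ring

set_option maxRecDepth 100000 in
lemma Sm_chart (s h t k : ℝ) :
    (1024 : ℝ) * Rval TSm (s ^ 2 * (1 - 6 * h), 2 * (s ^ 3 * (1 - 9 * h)), 0)
        (t ^ 2 * (1 - 6 * k), -(t ^ 3 * (1 - 9 * k)), 0)
      = s ^ 2 * t ^ 2 * (s ^ 2 * Rval HSm1 (s, 8 * h, 0) (t, 8 * k, 0)
          + t ^ 2 * Rval HSm2 (s, 8 * h, 0) (t, 8 * k, 0)) := by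
  have e := eq_of_check' (n := 4) [s, h, t, k] rfl
    (E.num 1024 * toE (aSE (E.var 0) (E.var 1)) (CSE (E.var 0) (E.var 1)) (E.num 0)
      (aSE (E.var 2) (E.var 3)) (QSE (E.var 2) (E.var 3)) (E.num 0) TSm)
    (E.var 0 ^ 2 * E.var 2 ^ 2 * (E.var 0 ^ 2 * toE (E.var 0) (E.num 8 * E.var 1) (E.num 0)
        (E.var 2) (E.num 8 * E.var 3) (E.num 0) HSm1
      + E.var 2 ^ 2 * toE (E.var 0) (E.num 8 * E.var 1) (E.num 0)
        (E.var 2) (E.num 8 * E.var 3) (E.num 0) HSm2)) (by decide +kernel)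
  have d0 : den [s, h, t, k] (E.var 0) = s := rfl
  have d1 : den [s, h, t, k] (E.var 1) = h := rfl
  have d2 : den [s, h, t, k] (E.var 2) = t := rfl
  have d3 : den [s, h, t, k] (E.var 3) = k := rfl
  simp only [den_mul', den_add', den_toE, den_aSE, den_CSE, den_QSE, den_pow', den_num', d0, d1, d2, d3] at e
  norm_num at e
  norm_num
  exact e

theorem Sm_nonneg {x x' : Fin 3 → ℝ} (hx : x ∈ Simp 3) (hx' : x' ∈ Simp 3) (hh : ∀ i, x' i ≤ 1 / 2) :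
    0 ≤ Rval TSm (aFn 3 x, 2 * cFn x, 0) (4 * aFn 3 x', 8 * cFn x', 0) :=
  pair_of_hats TSm HSm1 HSm2 1024 (by norm_num) Sm_chart
    (fun _ _ _ _ a1 a2 a3 a4 a5 a6 a7 a8 => hat_pos PHSm1 HSm1_check rfl rfl
      ⟨by decide +kernel, by decide +kernel⟩ ⟨by decide +kernel, by decide +kernel⟩
      ⟨by decide +kernel, by decide +kernel⟩ ⟨by decide +kernel, by decide +kernel⟩
      ⟨by decide +kernel, by decide +kernel⟩ ⟨by decide +kernel, by decide +kernel⟩ a1 a2 a3 a4 a5 a6 a7 a8)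
    (fun _ _ _ _ a1 a2 a3 a4 a5 a6 a7 a8 => hat_pos PHSm2 HSm2_check rfl rfl
      ⟨by decide +kernel, by decide +kernel⟩ ⟨by decide +kernel, by decide +kernel⟩
      ⟨by decide +kernel, by decide +kernel⟩ ⟨by decide +kernel, by decide +kernel⟩
      ⟨by decide +kernel, by decide +kernel⟩ ⟨by decide +kernel, by decide +kernel⟩ a1 a2 a3 a4 a5 a6 a7 a8)
    hx hx' hh

/-! ### `Pm` -/

set_option maxRecDepth 100000 in
lemma Pm_eval (a c a' c' : ℝ) : Rval TPm (a, 2 * c, 0) (4 * a', 8 * c', 0)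
    = 64 * (L3 a c a' c' - (c + c' + 6 * a * a' - 6 * c * a' - 6 * a * c' + c * c' - 10 * a ^ 2 * a' - 10 * a * a' ^ 2)) := by
  simp [TPm, Rval, termV]
  unfold L3 G1 G2 G4 VV
  ring

set_option maxRecDepth 100000 in
lemma Pm_chart (s h t k : ℝ) :
    (1024 : ℝ) * Rval TPm (s ^ 2 * (1 - 6 * h), 2 * (s ^ 3 * (1 - 9 * h)), 0)
        (t ^ 2 * (1 - 6 * k), -(t ^ 3 * (1 - 9 * k)), 0)
      = s ^ 2 * t ^ 2 * (s ^ 2 * Rval HPm1 (s, 8 * h, 0) (t, 8 * k, 0)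
          + t ^ 2 * Rval HPm2 (s, 8 * h, 0) (t, 8 * k, 0)) := by
  have e := eq_of_check' (n := 4) [s, h, t, k] rfl
    (E.num 1024 * toE (aSE (E.var 0) (E.var 1)) (CSE (E.var 0) (E.var 1)) (E.num 0)
      (aSE (E.var 2) (E.var 3)) (QSE (E.var 2) (E.var 3)) (E.num 0) TPm)
    (E.var 0 ^ 2 * E.var 2 ^ 2 * (E.var 0 ^ 2 * toE (E.var 0) (E.num 8 * E.var 1) (E.num 0)
        (E.var 2) (E.num 8 * E.var 3) (E.num 0) HPm1
      + E.var 2 ^ 2 * toE (E.var 0) (E.num 8 * E.var 1) (E.num 0)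
        (E.var 2) (E.num 8 * E.var 3) (E.num 0) HPm2)) (by decide +kernel)
  have d0 : den [s, h, t, k] (E.var 0) = s := rfl
  have d1 : den [s, h, t, k] (E.var 1) = h := rfl
  have d2 : den [s, h, t, k] (E.var 2) = t := rfl
  have d3 : den [s, h, t, k] (E.var 3) = k := rfl
  simp only [den_mul', den_add', den_toE, den_aSE, den_CSE, den_QSE, den_pow', den_num', d0, d1, d2, d3] at e
  norm_num at e
  norm_num
  exact e

theorem Pm_nonneg {x x' : Fin 3 → ℝ} (hx : x ∈ Simp 3) (hx' : x' ∈ Simp 3) (hh : ∀ i, x' i ≤ 1 / 2) :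
    0 ≤ Rval TPm (aFn 3 x, 2 * cFn x, 0) (4 * aFn 3 x', 8 * cFn x', 0) :=
  pair_of_hats TPm HPm1 HPm2 1024 (by norm_num) Pm_chart
    (fun _ _ _ _ a1 a2 a3 a4 a5 a6 a7 a8 => hat_pos PHPm1 HPm1_check rfl rfl
      ⟨by decide +kernel, by decide +kernel⟩ ⟨by decide +kernel, by decide +kernel⟩
      ⟨by decide +kernel, by decide +kernel⟩ ⟨by decide +kernel, by decide +kernel⟩
      ⟨by decide +kernel, by decide +kernel⟩ ⟨by decide +kernel, by decide +kernel⟩ a1 a2 a3 a4 a5 a6 a7 a8)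
    (fun _ _ _ _ a1 a2 a3 a4 a5 a6 a7 a8 => hat_pos PHPm2 HPm2_check rfl rfl
      ⟨by decide +kernel, by decide +kernel⟩ ⟨by decide +kernel, by decide +kernel⟩
      ⟨by decide +kernel, by decide +kernel⟩ ⟨by decide +kernel, by decide +kernel⟩
      ⟨by decide +kernel, by decide +kernel⟩ ⟨by decide +kernel, by decide +kernel⟩ a1 a2 a3 a4 a5 a6 a7 a8)
    hx hx' hh

/-! ### `Pp` -/

set_option maxRecDepth 100000 in
lemma Pp_eval (a c a' c' : ℝ) : Rval TPp (a, 2 * c, 0) (4 * a', 8 * c', 0)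
    = 2560 * (c + c' + 6 * a * a' - 6 * c * a' - 6 * a * c' + c * c' + 2 * a ^ 2 * a' - U3b a c a' c') := by
  simp [TPp, Rval, termV]
  unfold U3b G1 G4 G6 G7 G8 VV
  ring

set_option maxRecDepth 100000 in
lemma Pp_chart (s h t k : ℝ) :
    (16384 : ℝ) * Rval TPp (s ^ 2 * (1 - 6 * h), 2 * (s ^ 3 * (1 - 9 * h)), 0)
        (t ^ 2 * (1 - 6 * k), -(t ^ 3 * (1 - 9 * k)), 0)
      = s ^ 2 * t ^ 2 * (s ^ 2 * Rval HPp1 (s, 8 * h, 0) (t, 8 * k, 0)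
          + t ^ 2 * Rval HPp2 (s, 8 * h, 0) (t, 8 * k, 0)) := by
  have e := eq_of_check' (n := 4) [s, h, t, k] rfl
    (E.num 16384 * toE (aSE (E.var 0) (E.var 1)) (CSE (E.var 0) (E.var 1)) (E.num 0)
      (aSE (E.var 2) (E.var 3)) (QSE (E.var 2) (E.var 3)) (E.num 0) TPp)
    (E.var 0 ^ 2 * E.var 2 ^ 2 * (E.var 0 ^ 2 * toE (E.var 0) (E.num 8 * E.var 1) (E.num 0)
        (E.var 2) (E.num 8 * E.var 3) (E.num 0) HPp1
      + E.var 2 ^ 2 * toE (E.var 0) (E.num 8 * E.var 1) (E.num 0)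
        (E.var 2) (E.num 8 * E.var 3) (E.num 0) HPp2)) (by decide +kernel)
  have d0 : den [s, h, t, k] (E.var 0) = s := rfl
  have d1 : den [s, h, t, k] (E.var 1) = h := rfl
  have d2 : den [s, h, t, k] (E.var 2) = t := rfl
  have d3 : den [s, h, t, k] (E.var 3) = k := rfl
  simp only [den_mul', den_add', den_toE, den_aSE, den_CSE, den_QSE, den_pow', den_num', d0, d1, d2, d3] at e
  norm_num at e
  norm_num
  exact e

theorem Pp_nonneg {x x' : Fin 3 → ℝ} (hx : x ∈ Simp 3) (hx' : x' ∈ Simp 3) (hh : ∀ i, x' i ≤ 1 / 2) :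
    0 ≤ Rval TPp (aFn 3 x, 2 * cFn x, 0) (4 * aFn 3 x', 8 * cFn x', 0) :=
  pair_of_hats TPp HPp1 HPp2 16384 (by norm_num) Pp_chart
    (fun _ _ _ _ a1 a2 a3 a4 a5 a6 a7 a8 => hat_pos PHPp1 HPp1_check rfl rfl
      ⟨by decide +kernel, by decide +kernel⟩ ⟨by decide +kernel, by decide +kernel⟩
      ⟨by decide +kernel, by decide +kernel⟩ ⟨by decide +kernel, by decide +kernel⟩
      ⟨by decide +kernel, by decide +kernel⟩ ⟨by decide +kernel, by decide +kernel⟩ a1 a2 a3 a4 a5 a6 a7 a8)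
    (fun _ _ _ _ a1 a2 a3 a4 a5 a6 a7 a8 => hat_pos PHPp2 HPp2_check rfl rfl
      ⟨by decide +kernel, by decide +kernel⟩ ⟨by decide +kernel, by decide +kernel⟩
      ⟨by decide +kernel, by decide +kernel⟩ ⟨by decide +kernel, by decide +kernel⟩
      ⟨by decide +kernel, by decide +kernel⟩ ⟨by decide +kernel, by decide +kernel⟩ a1 a2 a3 a4 a5 a6 a7 a8)
    hx hx' hh

/-! ### `Rp` -/

set_option maxRecDepth 100000 in
lemma Rp_eval (a c a' c' : ℝ) : Rval TRp (a, 2 * c, 0) (4 * a', 8 * c', 0)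
    = 7680 * (a ^ 2 + a' ^ 2 + 4 * a * a' + 4 * c * a' + 4 * a * c' - 2 * c * c' - 24 * a ^ 2 * c' + 5 * a ^ 2 * a' + 12 * a * a' ^ 2 - U2b a c a' c') := by
  simp [TRp, Rval, termV]
  unfold U2b G1 G5 G6 G9
  ring

set_option maxRecDepth 100000 in
lemma Rp_chart (s h t k : ℝ) :
    (65536 : ℝ) * Rval TRp (s ^ 2 * (1 - 6 * h), 2 * (s ^ 3 * (1 - 9 * h)), 0)
        (t ^ 2 * (1 - 6 * k), -(t ^ 3 * (1 - 9 * k)), 0)
      = s ^ 2 * t ^ 2 * (s ^ 2 * Rval HRp1 (s, 8 * h, 0) (t, 8 * k, 0)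
          + t ^ 2 * Rval HRp2 (s, 8 * h, 0) (t, 8 * k, 0)) := by
  have e := eq_of_check' (n := 4) [s, h, t, k] rfl
    (E.num 65536 * toE (aSE (E.var 0) (E.var 1)) (CSE (E.var 0) (E.var 1)) (E.num 0)
      (aSE (E.var 2) (E.var 3)) (QSE (E.var 2) (E.var 3)) (E.num 0) TRp)
    (E.var 0 ^ 2 * E.var 2 ^ 2 * (E.var 0 ^ 2 * toE (E.var 0) (E.num 8 * E.var 1) (E.num 0)
        (E.var 2) (E.num 8 * E.var 3) (E.num 0) HRp1
      + E.var 2 ^ 2 * toE (E.var 0) (E.num 8 * E.var 1) (E.num 0)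
        (E.var 2) (E.num 8 * E.var 3) (E.num 0) HRp2)) (by decide +kernel)
  have d0 : den [s, h, t, k] (E.var 0) = s := rfl
  have d1 : den [s, h, t, k] (E.var 1) = h := rfl
  have d2 : den [s, h, t, k] (E.var 2) = t := rfl
  have d3 : den [s, h, t, k] (E.var 3) = k := rfl
  simp only [den_mul', den_add', den_toE, den_aSE, den_CSE, den_QSE, den_pow', den_num', d0, d1, d2, d3] at e
  norm_num at e
  norm_num
  exact e

theorem Rp_nonneg {x x' : Fin 3 → ℝ} (hx : x ∈ Simp 3) (hx' : x' ∈ Simp 3) (hh : ∀ i, x' i ≤ 1 / 2) :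
    0 ≤ Rval TRp (aFn 3 x, 2 * cFn x, 0) (4 * aFn 3 x', 8 * cFn x', 0) :=
  pair_of_hats TRp HRp1 HRp2 65536 (by norm_num) Rp_chart
    (fun _ _ _ _ a1 a2 a3 a4 a5 a6 a7 a8 => hat_pos PHRp1 HRp1_check rfl rfl
      ⟨by decide +kernel, by decide +kernel⟩ ⟨by decide +kernel, by decide +kernel⟩
      ⟨by decide +kernel, by decide +kernel⟩ ⟨by decide +kernel, by decide +kernel⟩
      ⟨by decide +kernel, by decide +kernel⟩ ⟨by decide +kernel, by decide +kernel⟩ a1 a2 a3 a4 a5 a6 a7 a8)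
    (fun _ _ _ _ a1 a2 a3 a4 a5 a6 a7 a8 => hat_pos PHRp2 HRp2_check rfl rfl
      ⟨by decide +kernel, by decide +kernel⟩ ⟨by decide +kernel, by decide +kernel⟩
      ⟨by decide +kernel, by decide +kernel⟩ ⟨by decide +kernel, by decide +kernel⟩
      ⟨by decide +kernel, by decide +kernel⟩ ⟨by decide +kernel, by decide +kernel⟩ a1 a2 a3 a4 a5 a6 a7 a8)
    hx hx' hh


/-! ## the five bounds -/

section final
variable {x x' : Fin 3 → ℝ}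

/-- (S+) -/
theorem tail_Sp (hx : x ∈ Simp 3) (hx' : x' ∈ Simp 3) (hh : ∀ i, x' i ≤ 1 / 2) :
    Esig 3 (aFn 3) x x' ≤ aFn 3 x + aFn 3 x' - aFn 3 x * aFn 3 x' - 2 * cFn x * aFn 3 x' - 2 * aFn 3 x * cFn x'
      + 2 * cFn x * cFn x' + 3 * aFn 3 x ^ 2 * aFn 3 x' + 3 * aFn 3 x * aFn 3 x' ^ 2 := by
  have h1 := Sp_nonneg hx hx' hh
  rw [Sp_eval] at h1
  have h2 := Esig_a_le hx hx'
  linarith

/-- (S-) -/
theorem tail_Sm (hx : x ∈ Simp 3) (hx' : x' ∈ Simp 3) (hh : ∀ i, x' i ≤ 1 / 2) :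
    aFn 3 x + aFn 3 x' - aFn 3 x * aFn 3 x' - 2 * cFn x * aFn 3 x' - 2 * aFn 3 x * cFn x'
      + 2 * cFn x * cFn x' ≤ Esig 3 (aFn 3) x x' := by
  have h1 := Sm_nonneg hx hx' hh
  rw [Sm_eval] at h1
  have h2 := Esig_a_ge hx hx'
  linarith

/-- (P+) -/
theorem tail_Pp (hx : x ∈ Simp 3) (hx' : x' ∈ Simp 3) (hh : ∀ i, x' i ≤ 1 / 2) :
    Esig 3 cFn x x' ≤ cFn x + cFn x' + 6 * aFn 3 x * aFn 3 x' - 6 * cFn x * aFn 3 x' - 6 * aFn 3 x * cFn x'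
      + cFn x * cFn x' + 2 * aFn 3 x ^ 2 * aFn 3 x' := by
  have h1 := Pp_nonneg hx hx' hh
  rw [Pp_eval] at h1
  have h2 := Esig_c_leB hx hx' hh
  linarith

/-- (P-) -/
theorem tail_Pm (hx : x ∈ Simp 3) (hx' : x' ∈ Simp 3) (hh : ∀ i, x' i ≤ 1 / 2) :
    cFn x + cFn x' + 6 * aFn 3 x * aFn 3 x' - 6 * cFn x * aFn 3 x' - 6 * aFn 3 x * cFn x'
      + cFn x * cFn x' - 10 * aFn 3 x ^ 2 * aFn 3 x' - 10 * aFn 3 x * aFn 3 x' ^ 2 ≤ Esig 3 cFn x x' := by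
  have h1 := Pm_nonneg hx hx' hh
  rw [Pm_eval] at h1
  have h2 := Esig_c_ge hx hx'
  linarith

/-- (R+) -/
theorem tail_Rp (hx : x ∈ Simp 3) (hx' : x' ∈ Simp 3) (hh : ∀ i, x' i ≤ 1 / 2) :
    Esig 3 (fun y => aFn 3 y ^ 2) x x' ≤ aFn 3 x ^ 2 + aFn 3 x' ^ 2 + 4 * aFn 3 x * aFn 3 x' + 4 * cFn x * aFn 3 x'
      + 4 * aFn 3 x * cFn x' - 2 * cFn x * cFn x' - 24 * aFn 3 x ^ 2 * cFn x'
      + 5 * aFn 3 x ^ 2 * aFn 3 x' + 12 * aFn 3 x * aFn 3 x' ^ 2 := by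
  have h1 := Rp_nonneg hx hx' hh
  rw [Rp_eval] at h1
  have h2 := Esig_a2_leB hx hx' hh
  linarith

end final

end Crest.Agent.Lib.Bc.TailShort
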